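import Vale.Agent.P032.H460.KApex
import Vale.Agent.P032.H98.AntiP

/-!
# P032: unit triangles of two-pair points, mixed vertices

`V`, `y1`, `y2` a unit triangle of two-pair points with `T V = P ∪ Q`, `T y1 = P ∪ R`,
`T y2 = Q ∪ R`, three disjoint pairs of colours.  A vertex is pure if its two pairs are its two
classes.

* `apex388` : `z` mixed, `v` pure, `p` a common point of `S(z)`, `S(v)` of order at most three: the two
  colours of `v` which are not in `T z` are in `T p`.
* `one388` : exactly one vertex is mixed: impossible.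
* `two388` : exactly two vertices are mixed: impossible.

Only the orders of the three outer apexes are used; no mode, no list.
-/

open Set Filter Topology Metric

noncomputable section

namespace Vale.Agent.P032.H388

open Vale.Agent.P032.Six Vale.Agent.P032.S5.H767 Vale.Agent.P032.H695 Vale.Agent.P032.H460

variable {U : Fin 6 → Set ℂ} {T : ℂ → Set (Fin 6)} {V z v p q w y1 y2 : ℂ} {a b c d e f : Fin 6}

/-- letters near a point of the circle, the first pair is not a letter there -/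
theorem letters388 (C : Ctr U T z a b c d e f) (hp : p ∉ closure (Ex T z {a, b})) :
    ∀ᶠ q in 𝓝[sphere z 1] p, T q ⊆ T p ∧
      (e ∈ T q ∨ f ∈ T q ∨ ({c, d} : Set (Fin 6)) ⊆ T q) := by
  have h0 : ∀ᶠ q in 𝓝[sphere z 1] p, q ∉ closure (Ex T z {a, b}) :=
    mem_nhdsWithin_of_mem_nhds (isClosed_closure.isOpen_compl.mem_nhds hp)
  filter_upwards [mem_nhdsWithin_of_mem_nhds (C.irr.nhd p), self_mem_nhdsWithin, h0] with q h1 h2 h4
  refine ⟨h1, ?_⟩
  obtain ⟨l, hl⟩ := C.cover (mem_sphere.1 h2)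
  have h3 := Lt_col C.irr hl
  fin_cases l
  · exact Or.inl (h3 rfl)
  · exact Or.inr (Or.inl (h3 rfl))
  · exact absurd hl h4
  · exact Or.inr (Or.inr h3)

/-- **apex rule** of a mixed point `z = (ac | bd)` and a pure point `v = (ab | ef)` -/
theorem apex388 (h : Irr U T) (nd : [a, b, c, d, e, f].Nodup) (hz : DPt T z a c b d)
    (hv : DPt T v a b e f) (hvz : dist v z = 1) (hpz : dist p z = 1) (hpv : dist p v = 1)
    (h3 : (T p).ncard ≤ 3) : e ∈ T p := by
  have hn := nd
  simp only [List.nodup_cons, List.mem_cons, List.not_mem_nil, or_false, not_or, List.nodup_nil,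
    and_true, not_false_eq_true] at hn
  obtain ⟨⟨ab, ac, ad, ae, af⟩, ⟨bc, bd, be, bf⟩, ⟨cd, ce, cf⟩, ⟨de, df⟩, ef⟩ := hn
  have hzv : dist z v = 1 := by rw [dist_comm]; exact hvz
  have Cz := ctr_of h hz (e := e) (f := f) (by
    simp only [List.nodup_cons, List.mem_cons, List.not_mem_nil, or_false, not_or, List.nodup_nil,
      and_true, not_false_eq_true]
    exact ⟨⟨ac, ab, ad, ae, af⟩, ⟨Ne.symm bc, cd, ce, cf⟩, ⟨bd, be, bf⟩, ⟨de, df⟩, ef⟩)
  have Cv := ctr_of h hv (e := c) (f := d) (by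
    simp only [List.nodup_cons, List.mem_cons, List.not_mem_nil, or_false, not_or, List.nodup_nil,
      and_true, not_false_eq_true]
    exact ⟨⟨ab, ae, af, ac, ad⟩, ⟨be, bf, bc, bd⟩, ⟨ef, Ne.symm ce, Ne.symm de⟩,
      ⟨Ne.symm cf, Ne.symm df⟩, cd⟩)
  have lz := letters460 Cz p
  have lv := letters460 Cv p
  have zc : c ∈ T z := by rw [hz.pal]; simp
  have zd : d ∈ T z := by rw [hz.pal]; simp
  have va : a ∈ T v := by rw [hv.pal]; simp
  have vb : b ∈ T v := by rw [hv.pal]; simp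
  have vf : f ∈ T v := by rw [hv.pal]; simp
  by_contra he
  by_cases hac : a ∈ T p ∧ c ∈ T p
  · by_cases hf : f ∈ T p
    · -- `T p = {a, c, f}`
      refine apex460 h hzv hpv hpz (lv.mono fun q hq => ?_) zc
      rcases hq.2 with h1 | h1 | h1 | h1
      · exact h1
      · exact (not_four460 h3 (hq.1 h1) hac.1 hac.2 hf
          (by simp [Ne.symm ad, Ne.symm cd, df, ac, af, cf])).elim
      · exact (not_four460 h3 (hq.1 (pair_sub460 h1).2) hac.1 hac.2 hf
          (by simp [Ne.symm ab, bc, bf, ac, af, cf])).elim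
      · exact absurd (hq.1 (pair_sub460 h1).1) he
    · refine apex460 h hvz hpz hpv (lz.mono fun q hq => ?_) va
      rcases hq.2 with h1 | h1 | h1 | h1
      · exact absurd (hq.1 h1) he
      · exact absurd (hq.1 h1) hf
      · exact (pair_sub460 h1).1
      · exact (not_four460 h3 (hq.1 (pair_sub460 h1).1) (hq.1 (pair_sub460 h1).2) hac.1 hac.2
          (by simp [bd, Ne.symm ab, bc, Ne.symm ad, Ne.symm cd, ac])).elim
  · by_cases hbd : b ∈ T p ∧ d ∈ T p
    · by_cases hf : f ∈ T p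
      · -- `T p = {b, d, f}`
        refine apex460 h hzv hpv hpz (lv.mono fun q hq => ?_) zd
        rcases hq.2 with h1 | h1 | h1 | h1
        · exact (not_four460 h3 (hq.1 h1) hbd.1 hbd.2 hf
            (by simp [Ne.symm bc, cd, cf, bd, bf, df])).elim
        · exact h1
        · exact (not_four460 h3 (hq.1 (pair_sub460 h1).1) hbd.1 hbd.2 hf
            (by simp [ab, ad, af, bd, bf, df])).elim
        · exact absurd (hq.1 (pair_sub460 h1).1) he
      · refine apex460 h hvz hpz hpv (lz.mono fun q hq => ?_) vb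
        rcases hq.2 with h1 | h1 | h1 | h1
        · exact absurd (hq.1 h1) he
        · exact absurd (hq.1 h1) hf
        · exact absurd ⟨hq.1 (pair_sub460 h1).1, hq.1 (pair_sub460 h1).2⟩ hac
        · exact (pair_sub460 h1).1
    · refine apex460 h hvz hpz hpv (lz.mono fun q hq => ?_) vf
      rcases hq.2 with h1 | h1 | h1 | h1
      · exact absurd (hq.1 h1) he
      · exact h1
      · exact absurd ⟨hq.1 (pair_sub460 h1).1, hq.1 (pair_sub460 h1).2⟩ hac
      · exact absurd ⟨hq.1 (pair_sub460 h1).1, hq.1 (pair_sub460 h1).2⟩ hbd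

/-- **one mixed vertex**: `V = (ac | bd)`, `y1 = (ab | ef)`, `y2 = (cd | ef)` -/
theorem one388 (h : Irr U T) (nd : [a, b, c, d, e, f].Nodup) (hV : DPt T V a c b d)
    (h1 : DPt T y1 a b e f) (h2 : DPt T y2 c d e f) (d1 : dist y1 V = 1) (d2 : dist y2 V = 1)
    (d12 : dist y1 y2 = 1) (hp : (T (V + y1 - y2)).ncard ≤ 3) (hq : (T (V + y2 - y1)).ncard ≤ 3)
    (hw : (T (y1 + y2 - V)).ncard ≤ 3) : False := by
  have hn := nd
  simp only [List.nodup_cons, List.mem_cons, List.not_mem_nil, or_false, not_or, List.nodup_nil,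
    and_true, not_false_eq_true] at hn
  obtain ⟨⟨ab, ac, ad, ae, af⟩, ⟨bc, bd, be, bf⟩, ⟨cd, ce, cf⟩, ⟨de, df⟩, ef⟩ := hn
  have d21 : dist y2 y1 = 1 := by rw [dist_comm]; exact d12
  have dV1 : dist V y1 = 1 := by rw [dist_comm]; exact d1
  have dV2 : dist V y2 = 1 := by rw [dist_comm]; exact d2
  -- the three outer apexes
  have pV : dist (V + y1 - y2) V = 1 := by
    rw [dist_eq_norm, show V + y1 - y2 - V = y1 - y2 by ring, ← dist_eq_norm]; exact d12
  have p1 : dist (V + y1 - y2) y1 = 1 := by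
    rw [dist_eq_norm, show V + y1 - y2 - y1 = V - y2 by ring, ← dist_eq_norm]; exact dV2
  have qV : dist (V + y2 - y1) V = 1 := by
    rw [dist_eq_norm, show V + y2 - y1 - V = y2 - y1 by ring, ← dist_eq_norm]; exact d21
  have q2 : dist (V + y2 - y1) y2 = 1 := by
    rw [dist_eq_norm, show V + y2 - y1 - y2 = V - y1 by ring, ← dist_eq_norm]; exact dV1
  have w1 : dist (y1 + y2 - V) y1 = 1 := by
    rw [dist_eq_norm, show y1 + y2 - V - y1 = y2 - V by ring, ← dist_eq_norm]; exact d2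
  have w2 : dist (y1 + y2 - V) y2 = 1 := by
    rw [dist_eq_norm, show y1 + y2 - V - y2 = y1 - V by ring, ← dist_eq_norm]; exact d1
  have nd' : [a, b, c, d, f, e].Nodup := by
    simp only [List.nodup_cons, List.mem_cons, List.not_mem_nil, or_false, not_or, List.nodup_nil,
      and_true, not_false_eq_true]
    exact ⟨⟨ab, ac, ad, af, ae⟩, ⟨bc, bd, bf, be⟩, ⟨cd, cf, ce⟩, ⟨df, de⟩, Ne.symm ef⟩
  have nd2 : [c, d, a, b, e, f].Nodup := by
    simp only [List.nodup_cons, List.mem_cons, List.not_mem_nil, or_false, not_or, List.nodup_nil,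
      and_true, not_false_eq_true]
    exact ⟨⟨cd, Ne.symm ac, Ne.symm bc, ce, cf⟩, ⟨Ne.symm ad, Ne.symm bd, de, df⟩, ⟨ab, ae, af⟩,
      ⟨be, bf⟩, ef⟩
  have nd2' : [c, d, a, b, f, e].Nodup := by
    simp only [List.nodup_cons, List.mem_cons, List.not_mem_nil, or_false, not_or, List.nodup_nil,
      and_true, not_false_eq_true]
    exact ⟨⟨cd, Ne.symm ac, Ne.symm bc, cf, ce⟩, ⟨Ne.symm ad, Ne.symm bd, df, de⟩, ⟨ab, af, ae⟩,
      ⟨bf, be⟩, Ne.symm ef⟩
  have ep := apex388 h nd hV h1 d1 pV p1 hp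
  have fp := apex388 h nd' hV h1.swap34 d1 pV p1 hp
  have hV2 : DPt T V c a d b := hV.swap12.swap34
  have eq' := apex388 h nd2 hV2 h2 d2 qV q2 hq
  have fq := apex388 h nd2' hV2 h2.swap34 d2 qV q2 hq
  -- `ab` is no letter of `S(y1)` at `w`, `cd` is no letter of `S(y2)` at `w`
  have k1 : y1 + y2 - V ∉ closure (Ex T y1 {a, b}) := by
    have h5 := h.anti_clo h1 p1 ep fp
    rwa [show 2 * y1 - (V + y1 - y2) = y1 + y2 - V by ring] at h5
  have k2 : y1 + y2 - V ∉ closure (Ex T y2 {c, d}) := by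
    have h5 := h.anti_clo h2 q2 eq' fq
    rwa [show 2 * y2 - (V + y2 - y1) = y1 + y2 - V by ring] at h5
  have C1 := ctr_of h h1 (e := c) (f := d) (by
    simp only [List.nodup_cons, List.mem_cons, List.not_mem_nil, or_false, not_or, List.nodup_nil,
      and_true, not_false_eq_true]
    exact ⟨⟨ab, ae, af, ac, ad⟩, ⟨be, bf, bc, bd⟩, ⟨ef, Ne.symm ce, Ne.symm de⟩,
      ⟨Ne.symm cf, Ne.symm df⟩, cd⟩)
  have C2 := ctr_of h h2 (e := a) (f := b) (by
    simp only [List.nodup_cons, List.mem_cons, List.not_mem_nil, or_false, not_or, List.nodup_nil,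
      and_true, not_false_eq_true]
    exact ⟨⟨cd, ce, cf, Ne.symm ac, Ne.symm bc⟩, ⟨de, df, Ne.symm ad, Ne.symm bd⟩,
      ⟨ef, Ne.symm ae, Ne.symm be⟩, ⟨Ne.symm af, Ne.symm bf⟩, ab⟩)
  have l1 := letters388 C1 k1
  have l2 := letters388 C2 k2
  have e1 : e ∈ T y1 := by rw [h1.pal]; simp
  have a1 : a ∈ T y1 := by rw [h1.pal]; simp
  have b1 : b ∈ T y1 := by rw [h1.pal]; simp
  have e2 : e ∈ T y2 := by rw [h2.pal]; simp
  have c2 : c ∈ T y2 := by rw [h2.pal]; simp
  have dd2 : d ∈ T y2 := by rw [h2.pal]; simp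
  by_cases hef : e ∈ T (y1 + y2 - V) ∧ f ∈ T (y1 + y2 - V)
  · by_cases hcd : c ∈ T (y1 + y2 - V) ∨ d ∈ T (y1 + y2 - V)
    · -- `S(y2)` shows only `ef`
      refine apex460 h (v := y1) (z := y2) d12 w2 w1 (l2.mono fun x hx => ?_) e1
      rcases hx.2 with h5 | h5 | h5
      · exfalso
        rcases hcd with h6 | h6
        · exact not_four460 hw (hx.1 h5) h6 hef.1 hef.2 (by simp [ac, ae, af, ce, cf, ef])
        · exact not_four460 hw (hx.1 h5) h6 hef.1 hef.2 (by simp [ad, ae, af, de, df, ef])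
      · exfalso
        rcases hcd with h6 | h6
        · exact not_four460 hw (hx.1 h5) h6 hef.1 hef.2 (by simp [bc, be, bf, ce, cf, ef])
        · exact not_four460 hw (hx.1 h5) h6 hef.1 hef.2 (by simp [bd, be, bf, de, df, ef])
      · exact (pair_sub460 h5).1
    · -- `S(y1)` shows only `ef`
      push Not at hcd
      refine apex460 h (v := y2) (z := y1) d21 w1 w2 (l1.mono fun x hx => ?_) e2
      rcases hx.2 with h5 | h5 | h5
      · exact absurd (hx.1 h5) hcd.1
      · exact absurd (hx.1 h5) hcd.2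
      · exact (pair_sub460 h5).1
  · -- only single letters
    have hc : c ∈ T (y1 + y2 - V) := by
      by_contra hc
      refine apex460 h (v := y2) (z := y1) d21 w1 w2 (l1.mono fun x hx => ?_) dd2
      rcases hx.2 with h5 | h5 | h5
      · exact absurd (hx.1 h5) hc
      · exact h5
      · exact absurd ⟨hx.1 (pair_sub460 h5).1, hx.1 (pair_sub460 h5).2⟩ hef
    have hd : d ∈ T (y1 + y2 - V) := by
      by_contra hd
      refine apex460 h (v := y2) (z := y1) d21 w1 w2 (l1.mono fun x hx => ?_) c2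
      rcases hx.2 with h5 | h5 | h5
      · exact h5
      · exact absurd (hx.1 h5) hd
      · exact absurd ⟨hx.1 (pair_sub460 h5).1, hx.1 (pair_sub460 h5).2⟩ hef
    have ha : a ∈ T (y1 + y2 - V) := by
      by_contra ha
      refine apex460 h (v := y1) (z := y2) d12 w2 w1 (l2.mono fun x hx => ?_) b1
      rcases hx.2 with h5 | h5 | h5
      · exact absurd (hx.1 h5) ha
      · exact h5
      · exact absurd ⟨hx.1 (pair_sub460 h5).1, hx.1 (pair_sub460 h5).2⟩ hef
    have hb : b ∈ T (y1 + y2 - V) := by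
      by_contra hb
      refine apex460 h (v := y1) (z := y2) d12 w2 w1 (l2.mono fun x hx => ?_) a1
      rcases hx.2 with h5 | h5 | h5
      · exact h5
      · exact absurd (hx.1 h5) hb
      · exact absurd ⟨hx.1 (pair_sub460 h5).1, hx.1 (pair_sub460 h5).2⟩ hef
    exact not_four460 hw ha hb hc hd (by simp [ab, ac, ad, bc, bd, cd])

/-- **two mixed vertices**: `V = (ab | cd)`, `y1 = (ae | bf)`, `y2 = (ce | df)` -/
theorem two388 (h : Irr U T) (nd : [a, b, c, d, e, f].Nodup) (hV : DPt T V a b c d)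
    (h1 : DPt T y1 a e b f) (h2 : DPt T y2 c e d f) (d1 : dist y1 V = 1) (d2 : dist y2 V = 1)
    (d12 : dist y1 y2 = 1) (hp : (T (V + y1 - y2)).ncard ≤ 3)
    (hq : (T (V + y2 - y1)).ncard ≤ 3) : False := by
  have hn := nd
  simp only [List.nodup_cons, List.mem_cons, List.not_mem_nil, or_false, not_or, List.nodup_nil,
    and_true, not_false_eq_true] at hn
  obtain ⟨⟨ab, ac, ad, ae, af⟩, ⟨bc, bd, be, bf⟩, ⟨cd, ce, cf⟩, ⟨de, df⟩, ef⟩ := hn
  have d21 : dist y2 y1 = 1 := by rw [dist_comm]; exact d12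
  have dV1 : dist V y1 = 1 := by rw [dist_comm]; exact d1
  have dV2 : dist V y2 = 1 := by rw [dist_comm]; exact d2
  have pV : dist (V + y1 - y2) V = 1 := by
    rw [dist_eq_norm, show V + y1 - y2 - V = y1 - y2 by ring, ← dist_eq_norm]; exact d12
  have p1 : dist (V + y1 - y2) y1 = 1 := by
    rw [dist_eq_norm, show V + y1 - y2 - y1 = V - y2 by ring, ← dist_eq_norm]; exact dV2
  have qV : dist (V + y2 - y1) V = 1 := by
    rw [dist_eq_norm, show V + y2 - y1 - V = y2 - y1 by ring, ← dist_eq_norm]; exact d21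
  have q2 : dist (V + y2 - y1) y2 = 1 := by
    rw [dist_eq_norm, show V + y2 - y1 - y2 = V - y1 by ring, ← dist_eq_norm]; exact dV1
  -- `c, d` at `p`
  have cp : c ∈ T (V + y1 - y2) := by
    refine apex388 h (a := a) (b := b) (c := e) (d := f) (e := c) (f := d) ?_ h1 hV dV1 p1 pV hp
    simp only [List.nodup_cons, List.mem_cons, List.not_mem_nil, or_false, not_or, List.nodup_nil,
      and_true, not_false_eq_true]
    exact ⟨⟨ab, ae, af, ac, ad⟩, ⟨be, bf, bc, bd⟩, ⟨ef, Ne.symm ce, Ne.symm de⟩,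
      ⟨Ne.symm cf, Ne.symm df⟩, cd⟩
  have dp : d ∈ T (V + y1 - y2) := by
    refine apex388 h (a := a) (b := b) (c := e) (d := f) (e := d) (f := c) ?_ h1 hV.swap34 dV1 p1
      pV hp
    simp only [List.nodup_cons, List.mem_cons, List.not_mem_nil, or_false, not_or, List.nodup_nil,
      and_true, not_false_eq_true]
    exact ⟨⟨ab, ae, af, ad, ac⟩, ⟨be, bf, bd, bc⟩, ⟨ef, Ne.symm de, Ne.symm ce⟩,
      ⟨Ne.symm df, Ne.symm cf⟩, Ne.symm cd⟩
  -- `a, b` at `q`
  have aq : a ∈ T (V + y2 - y1) := by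
    refine apex388 h (a := c) (b := d) (c := e) (d := f) (e := a) (f := b) ?_ h2 hV.swap dV2 q2 qV
      hq
    simp only [List.nodup_cons, List.mem_cons, List.not_mem_nil, or_false, not_or, List.nodup_nil,
      and_true, not_false_eq_true]
    exact ⟨⟨cd, ce, cf, Ne.symm ac, Ne.symm bc⟩, ⟨de, df, Ne.symm ad, Ne.symm bd⟩,
      ⟨ef, Ne.symm ae, Ne.symm be⟩, ⟨Ne.symm af, Ne.symm bf⟩, ab⟩
  have bq : b ∈ T (V + y2 - y1) := by
    refine apex388 h (a := c) (b := d) (c := e) (d := f) (e := b) (f := a) ?_ h2 hV.swap.swap34 dV2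
      q2 qV hq
    simp only [List.nodup_cons, List.mem_cons, List.not_mem_nil, or_false, not_or, List.nodup_nil,
      and_true, not_false_eq_true]
    exact ⟨⟨cd, ce, cf, Ne.symm bc, Ne.symm ac⟩, ⟨de, df, Ne.symm bd, Ne.symm ad⟩,
      ⟨ef, Ne.symm be, Ne.symm ae⟩, ⟨Ne.symm bf, Ne.symm af⟩, Ne.symm ab⟩
  -- `cd` is no letter of `S(V)` at `p`
  have k1 : V + y1 - y2 ∉ closure (Ex T V {c, d}) := by
    have h5 := h.anti_clo hV.swap qV aq bq
    rwa [show 2 * V - (V + y2 - y1) = V + y1 - y2 by ring] at h5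
  have CV := ctr_of h hV.swap (e := e) (f := f) (by
    simp only [List.nodup_cons, List.mem_cons, List.not_mem_nil, or_false, not_or, List.nodup_nil,
      and_true, not_false_eq_true]
    exact ⟨⟨cd, Ne.symm ac, Ne.symm bc, ce, cf⟩, ⟨Ne.symm ad, Ne.symm bd, de, df⟩, ⟨ab, ae, af⟩,
      ⟨be, bf⟩, ef⟩)
  have lV := letters388 CV k1
  have e1 : e ∈ T y1 := by rw [h1.pal]; simp
  have f1 : f ∈ T y1 := by rw [h1.pal]; simp
  have hab : ∀ x, T x ⊆ T (V + y1 - y2) → ({a, b} : Set (Fin 6)) ⊆ T x → False := fun x hx h5 =>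
    not_four460 hp (hx (pair_sub460 h5).1) (hx (pair_sub460 h5).2) cp dp
      (by simp [ab, ac, ad, bc, bd, cd])
  by_cases he : e ∈ T (V + y1 - y2)
  · refine apex460 h (v := y1) (z := V) d1 pV p1 (lV.mono fun x hx => ?_) e1
    rcases hx.2 with h5 | h5 | h5
    · exact h5
    · exact (not_four460 hp (hx.1 h5) he cp dp
        (by simp [Ne.symm ef, Ne.symm cf, Ne.symm df, Ne.symm ce, Ne.symm de, cd])).elim
    · exact (hab x hx.1 h5).elim
  · refine apex460 h (v := y1) (z := V) d1 pV p1 (lV.mono fun x hx => ?_) f1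
    rcases hx.2 with h5 | h5 | h5
    · exact absurd (hx.1 h5) he
    · exact h5
    · exact (hab x hx.1 h5).elim

end Vale.Agent.P032.H388
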